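import Mathlib

/-!
# P091, heart: activation by the greatest self-explained set   (helper124)

Letters (classes) `i : La` with masses `al i`, list laws `P i` on the finite set `Ga`.

* `exists_act` : every waiting set `W` contains a self-explained set `Z`, and the rest can be
  ordered such that every letter is unexplained with respect to `Z` and the letters not before it;
* `order_cost` : the order costs `1` in the information;
* `info_ord` : the growth of the information for a law on letters of the rest;
* `act_le`, `act_cost` : the inputs of the x-energy bound (`h = log T`, activation cost).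
-/

open Finset Real

set_option linter.unusedSectionVars false

namespace Vale.Agent.P091.T.H124

section act
variable {La Ga : Type*} [Fintype Ga] [DecidableEq La]

/-- (unnormalised) law of the list element under the set `Z` of letters -/
noncomputable def alZ (P : La → Ga → ℝ) (al : La → ℝ) (Z : Finset La) (k : Ga) : ℝ :=
  ∑ i ∈ Z, al i * P i k

open Classical in
/-- the mass of the list of `i` which is explained by `Z` with factor `T` -/
noncomputable def xm (P : La → Ga → ℝ) (al : La → ℝ) (T : ℝ) (Z : Finset La) (i : La) : ℝ :=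
  ∑ k, if P i k ≤ T * alZ P al Z k then P i k else 0

lemma alZ_mono {P : La → Ga → ℝ} {al : La → ℝ} (hP : ∀ i k, 0 ≤ P i k) (hal : ∀ i, 0 ≤ al i)
    {Z Z' : Finset La} (h : Z ⊆ Z') (k : Ga) : alZ P al Z k ≤ alZ P al Z' k :=
  sum_le_sum_of_subset_of_nonneg h fun i _ _ => mul_nonneg (hal i) (hP i k)

lemma alZ_nonneg {P : La → Ga → ℝ} {al : La → ℝ} (hP : ∀ i k, 0 ≤ P i k) (hal : ∀ i, 0 ≤ al i)
    (Z : Finset La) (k : Ga) : 0 ≤ alZ P al Z k :=
  sum_nonneg fun i _ => mul_nonneg (hal i) (hP i k)

lemma sum_alZ {P : La → Ga → ℝ} {al : La → ℝ} (hP1 : ∀ i, ∑ k, P i k = 1) (Z : Finset La) :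
    ∑ k, alZ P al Z k = ∑ i ∈ Z, al i := by
  unfold alZ
  rw [sum_comm]
  exact sum_congr rfl fun i _ => by rw [← mul_sum, hP1, mul_one]

/-- the explained mass is monotone in the set -/
lemma xm_mono {P : La → Ga → ℝ} {al : La → ℝ} {T : ℝ} (hP : ∀ i k, 0 ≤ P i k)
    (hal : ∀ i, 0 ≤ al i) (hT : 0 ≤ T) {Z Z' : Finset La} (h : Z ⊆ Z') (i : La) :
    xm P al T Z i ≤ xm P al T Z' i := by
  classical
  unfold xm
  refine sum_le_sum fun k _ => ?_
  by_cases h1 : P i k ≤ T * alZ P al Z k
  · have h2 : P i k ≤ T * alZ P al Z' k :=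
      h1.trans (mul_le_mul_of_nonneg_left (alZ_mono hP hal h k) hT)
    rw [if_pos h1, if_pos h2]
  · rw [if_neg h1]
    split_ifs
    · exact hP i k
    · exact le_rfl

/-- a letter of mass `≥ 1/T` explains itself -/
lemma xm_self {P : La → Ga → ℝ} {al : La → ℝ} {T : ℝ} (hP : ∀ i k, 0 ≤ P i k)
    (hal : ∀ i, 0 ≤ al i) (hT : 0 ≤ T) (hP1 : ∀ i, ∑ k, P i k = 1) {Z : Finset La} {i : La}
    (hi : i ∈ Z) (h : 1 ≤ T * al i) : xm P al T Z i = 1 := by
  classical
  unfold xm
  rw [← hP1 i]
  refine sum_congr rfl fun k _ => ?_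
  refine if_pos ?_
  calc P i k = 1 * P i k := (one_mul _).symm
    _ ≤ (T * al i) * P i k := mul_le_mul_of_nonneg_right h (hP i k)
    _ = T * (al i * P i k) := by ring
    _ ≤ T * alZ P al Z k := mul_le_mul_of_nonneg_left
        (single_le_sum (f := fun i => al i * P i k)
          (fun j _ => mul_nonneg (hal j) (hP j k)) hi) hT

/-- **Activation.** -/
theorem exists_act (P : La → Ga → ℝ) (al : La → ℝ) (T c : ℝ) (W : Finset La) :
    ∃ Z ⊆ W, (∀ i ∈ Z, c ≤ xm P al T Z i) ∧ ∃ rank : La → ℕ, ∀ i ∈ W \ Z,
      xm P al T (W.filter (fun j => j ∈ Z ∨ rank i ≤ rank j)) i < c := by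
  induction W using Finset.strongInduction with
  | H W ih =>
    by_cases h : ∀ i ∈ W, c ≤ xm P al T W i
    · exact ⟨W, Subset.refl W, h, fun _ => 0, fun i hi => absurd hi (by simp)⟩
    · obtain ⟨i0, hi0, hlt⟩ : ∃ i ∈ W, xm P al T W i < c := by
        by_contra hne
        exact h fun i hi => not_lt.1 fun hl => hne ⟨i, hi, hl⟩
      obtain ⟨Z, hZ, hZe, rank, hrank⟩ := ih (W.erase i0) (erase_ssubset hi0)
      have hi0Z : i0 ∉ Z := fun hh => (notMem_erase i0 W) (hZ hh)
      refine ⟨Z, hZ.trans (erase_subset _ _), hZe, fun j => if j = i0 then 0 else rank j + 1, ?_⟩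
      intro i hi
      rw [mem_sdiff] at hi
      by_cases hii : i = i0
      · subst hii
        have : W.filter (fun j => j ∈ Z ∨ (if i = i then 0 else rank i + 1) ≤
            (if j = i then 0 else rank j + 1)) = W := by
          refine filter_true_of_mem fun j _ => Or.inr ?_
          rw [if_pos rfl]
          exact Nat.zero_le _
        rw [this]
        exact hlt
      · have hi' : i ∈ (W.erase i0) \ Z := mem_sdiff.2 ⟨mem_erase.2 ⟨hii, hi.1⟩, hi.2⟩
        have hfe : W.filter (fun j => j ∈ Z ∨ (if i = i0 then 0 else rank i + 1) ≤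
            (if j = i0 then 0 else rank j + 1)) =
            (W.erase i0).filter (fun j => j ∈ Z ∨ rank i ≤ rank j) := by
          ext j
          simp only [mem_filter, mem_erase, if_neg hii]
          by_cases hj : j = i0
          · subst hj
            simp [hi0Z]
          · simp [hj]
        rw [hfe]
        exact hrank i hi'

/-- the weight of an activated letter is at most `T` times the reference -/
lemma act_le {P : La → Ga → ℝ} {al : La → ℝ} {T B : ℝ} {Z : Finset La} {i : La} {k : Ga} {b : ℝ}
    (hP : ∀ i k, 0 ≤ P i k) (hb : b ≤ B) (hB : 0 ≤ B) (hk : P i k ≤ T * alZ P al Z k) :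
    b * P i k ≤ T * (B * alZ P al Z k) :=
  calc b * P i k ≤ B * P i k := mul_le_mul_of_nonneg_right hb (hP i k)
    _ ≤ B * (T * alZ P al Z k) := mul_le_mul_of_nonneg_left hk hB
    _ = T * (B * alZ P al Z k) := by ring

/-- `a log (r/a) ≤ r - a` for `0 ≤ a ≤ r` -/
lemma mul_log_div_le {a r : ℝ} (ha : 0 ≤ a) (har : a ≤ r) : a * log (r / a) ≤ r - a := by
  rcases ha.eq_or_lt with h | h
  · rw [← h]; simpa using ha.trans har
  · have h1 : log (r / a) ≤ r / a - 1 := log_le_sub_one_of_pos (div_pos (h.trans_le har) h)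
    calc a * log (r / a) ≤ a * (r / a - 1) := mul_le_mul_of_nonneg_left h1 ha
      _ = r - a := by field_simp

/-- **Cost of an activation**: for class masses `A k ≤ r k = B · alZ Z k`, the entropy with respect
to the reference is at most `B` times the activated mass. -/
theorem act_cost {P : La → Ga → ℝ} {al : La → ℝ} {B : ℝ} {Z : Finset La} {A : Ga → ℝ}
    (hP1 : ∀ i, ∑ k, P i k = 1) (hA : ∀ k, 0 ≤ A k) (hAr : ∀ k, A k ≤ B * alZ P al Z k) :
    ∑ k, A k * log (B * alZ P al Z k / A k) ≤ B * ∑ i ∈ Z, al i := by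
  calc ∑ k, A k * log (B * alZ P al Z k / A k) ≤ ∑ k, (B * alZ P al Z k - A k) :=
        sum_le_sum fun k _ => mul_log_div_le (hA k) (hAr k)
    _ ≤ ∑ k, B * alZ P al Z k := sum_le_sum fun k _ => by linarith [hA k]
    _ = B * ∑ i ∈ Z, al i := by rw [← mul_sum, sum_alZ hP1]

end act

section order
variable {La : Type*}

/-- tail sums with respect to a rank -/
noncomputable def tail (S : Finset La) (f : La → ℝ) (rank : La → ℕ) (s : ℕ) : ℝ :=
  ∑ j ∈ S with s ≤ rank j, f j

lemma tail_nonneg {S : Finset La} {f : La → ℝ} (hf : ∀ i ∈ S, 0 ≤ f i) (rank : La → ℕ) (s : ℕ) :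
    0 ≤ tail S f rank s :=
  sum_nonneg fun i hi => hf i (mem_filter.1 hi).1

lemma tail_zero (S : Finset La) (f : La → ℝ) (rank : La → ℕ) :
    tail S f rank 0 = ∑ j ∈ S, f j := by
  unfold tail
  rw [filter_true_of_mem fun j _ => Nat.zero_le _]

lemma tail_succ (S : Finset La) (f : La → ℝ) (rank : La → ℕ) (s : ℕ) :
    tail S f rank s = (∑ j ∈ S with rank j = s, f j) + tail S f rank (s + 1) := by
  classical
  unfold tail
  rw [← sum_union]
  · congr 1
    ext j
    simp only [mem_filter, mem_union]
    constructor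
    · rintro ⟨h1, h2⟩
      rcases h2.eq_or_lt with h | h
      · exact Or.inl ⟨h1, h.symm⟩
      · exact Or.inr ⟨h1, h⟩
    · rintro (⟨h1, h2⟩ | ⟨h1, h2⟩)
      · exact ⟨h1, h2.ge⟩
      · exact ⟨h1, (Nat.le_succ s).trans h2⟩
  · rw [disjoint_left]
    intro j h1 h2
    rw [mem_filter] at h1 h2
    exact absurd h2.2 (by rw [h1.2]; exact Nat.not_succ_le_self s)

/-- the concave function `t log (T/t) + t` -/
noncomputable def phi (T t : ℝ) : ℝ := t * log (T / t) + t

lemma phi_step {T a b : ℝ} (hb : 0 ≤ b) (hba : b ≤ a) (haT : a ≤ T) :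
    (a - b) * log (T / a) ≤ phi T a - phi T b := by
  unfold phi
  rcases hb.eq_or_lt with h | h
  · rw [← h]
    simp only [sub_zero, zero_mul, add_zero]
    linarith [hb.trans hba]
  · have ha : 0 < a := h.trans_le hba
    have hT : 0 < T := ha.trans_le haT
    have h1 : log (T / b) = log (T / a) + log (a / b) := by
      rw [log_div hT.ne' h.ne', log_div hT.ne' ha.ne', log_div ha.ne' h.ne']; ring
    have h2 : b * log (a / b) ≤ a - b := mul_log_div_le h.le hba
    rw [h1]
    nlinarith [h2]

/-- **The order costs at most the total mass.** -/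
theorem order_cost {S : Finset La} {f : La → ℝ} (hf : ∀ i ∈ S, 0 ≤ f i) (rank : La → ℕ) :
    ∑ i ∈ S, f i * log ((∑ j ∈ S, f j) / tail S f rank (rank i)) ≤ ∑ j ∈ S, f j := by
  classical
  set T := ∑ j ∈ S, f j with hTdef
  obtain ⟨N, hN⟩ : ∃ N, ∀ j ∈ S, rank j < N :=
    ⟨S.sup rank + 1, fun j hj => Nat.lt_succ_of_le (le_sup hj)⟩
  have hNz : tail S f rank N = 0 := by
    unfold tail
    rw [filter_false_of_mem fun j hj => not_le.2 (hN j hj), sum_empty]
  have hle : ∀ s, tail S f rank (s + 1) ≤ tail S f rank s := fun s => by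
    rw [tail_succ S f rank s]
    have : 0 ≤ ∑ j ∈ S with rank j = s, f j := sum_nonneg fun i hi => hf i (mem_filter.1 hi).1
    linarith
  have hleT : ∀ s, tail S f rank s ≤ T := fun s => by
    induction s with
    | zero => rw [tail_zero]
    | succ s ih => exact (hle s).trans ih
  have h1 : ∑ i ∈ S, f i * log (T / tail S f rank (rank i)) =
      ∑ s ∈ range N, (tail S f rank s - tail S f rank (s + 1)) * log (T / tail S f rank s) := by
    rw [← sum_fiberwise_of_maps_to (s := S) (t := range N) (g := rank)
      (fun i hi => mem_range.2 (hN i hi))]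
    refine sum_congr rfl fun s _ => ?_
    have : tail S f rank s - tail S f rank (s + 1) = ∑ j ∈ S with rank j = s, f j := by
      rw [tail_succ S f rank s]; ring
    rw [this, sum_mul]
    exact sum_congr rfl fun i hi => by rw [(mem_filter.1 hi).2]
  rw [h1]
  calc ∑ s ∈ range N, (tail S f rank s - tail S f rank (s + 1)) * log (T / tail S f rank s)
      ≤ ∑ s ∈ range N, (phi T (tail S f rank s) - phi T (tail S f rank (s + 1))) :=
        sum_le_sum fun s _ => phi_step (tail_nonneg hf rank _) (hle s) (hleT s)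
    _ = phi T (tail S f rank 0) - phi T (tail S f rank N) := by
        rw [sum_range_sub' (fun s => phi T (tail S f rank s)) N]
    _ = T := by
        rw [hNz, tail_zero, ← hTdef]
        unfold phi
        by_cases hT : T = 0
        · rw [hT]; simp
        · rw [div_self hT]; simp

end order

section info
variable {La Ga : Type*} [Fintype Ga]

/-- **Growth of the information on the unexplained rest** (ordered form).  `w` = law on the letters
(at a fixed label), `P i` = list laws, `alT i` = the mass functions with respect to which `i` is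
unexplained, `e^c1` = density of `w` against the population. -/
theorem info_ord {S : Finset La} {w : La → ℝ} {P : La → Ga → ℝ} {rank : La → ℕ}
    {alT : La → Ga → ℝ} {th c1 q : ℝ}
    (hw : ∀ i ∈ S, 0 ≤ w i) (hw1 : ∑ i ∈ S, w i = 1) (hP : ∀ i ∈ S, ∀ k, 0 ≤ P i k)
    (hP1 : ∀ i ∈ S, ∑ k, P i k = 1) (hth : c1 ≤ th)
    (htail : ∀ i ∈ S, 0 < w i → ∀ k, tail S (fun j => w j * P j k) rank (rank i) ≤
      exp c1 * alT i k)
    (hun : ∀ i ∈ S, 0 < w i → q ≤ ∑ k, if exp th * alT i k < P i k then P i k else 0) :
    q * (th - c1) - 2 ≤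
      ∑ i ∈ S, w i * ∑ k, P i k * log (P i k / ∑ j ∈ S, w j * P j k) := by
  classical
  -- (1) the order
  have h1 : ∑ i ∈ S, w i * ∑ k, P i k *
      log ((∑ j ∈ S, w j * P j k) / tail S (fun j => w j * P j k) rank (rank i)) ≤ 1 := by
    calc ∑ i ∈ S, w i * ∑ k, P i k *
          log ((∑ j ∈ S, w j * P j k) / tail S (fun j => w j * P j k) rank (rank i))
        = ∑ k, ∑ i ∈ S, (w i * P i k) *
          log ((∑ j ∈ S, w j * P j k) / tail S (fun j => w j * P j k) rank (rank i)) := by
          rw [sum_comm]
          refine sum_congr rfl fun i _ => ?_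
          rw [mul_sum]
          exact sum_congr rfl fun k _ => by ring
      _ ≤ ∑ k, ∑ j ∈ S, w j * P j k :=
          sum_le_sum fun k _ => order_cost (fun i hi => mul_nonneg (hw i hi) (hP i hi k)) rank
      _ = 1 := by
          rw [sum_comm, ← hw1]
          exact sum_congr rfl fun i hi => by rw [← mul_sum, hP1 i hi, mul_one]
  -- (2) pointwise lower bound against the tails
  have hT0 : ∀ i k, 0 ≤ tail S (fun j => w j * P j k) rank (rank i) := fun i k =>
    tail_nonneg (fun j hj => mul_nonneg (hw j hj) (hP j hj k)) rank _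
  have hTge : ∀ i ∈ S, ∀ k, w i * P i k ≤ tail S (fun j => w j * P j k) rank (rank i) :=
    fun i hi k => by
      unfold tail
      exact single_le_sum (f := fun j => w j * P j k)
        (fun j hj => mul_nonneg (hw j (mem_filter.1 hj).1) (hP j (mem_filter.1 hj).1 k))
        (mem_filter.2 ⟨hi, le_rfl⟩)
  have h2 : ∀ i ∈ S, 0 < w i → q * (th - c1) - ∑ k, tail S (fun j => w j * P j k) rank (rank i) ≤
      ∑ k, P i k * log (P i k / tail S (fun j => w j * P j k) rank (rank i)) := by
    intro i hi hwi
    have hq := mul_le_mul_of_nonneg_right (hun i hi hwi) (sub_nonneg.2 hth)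
    refine le_trans (sub_le_sub_right hq _) ?_
    rw [sum_mul, ← sum_sub_distrib]
    refine sum_le_sum fun k _ => ?_
    set t := tail S (fun j => w j * P j k) rank (rank i) with ht
    rcases (hP i hi k).eq_or_lt with h0 | h0
    · rw [← h0]
      simp only [zero_mul, ite_self]
      linarith [hT0 i k]
    · have htp : 0 < t := (mul_pos hwi h0).trans_le (hTge i hi k)
      have hlb : -t ≤ P i k * log (P i k / t) := by
        have hlog : log (t / P i k) ≤ t / P i k - 1 := log_le_sub_one_of_pos (div_pos htp h0)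
        have hneg : log (P i k / t) = - log (t / P i k) := by
          rw [← log_inv, inv_div]
        rw [hneg]
        have := mul_le_mul_of_nonneg_left hlog h0.le
        have e1 : P i k * (t / P i k - 1) = t - P i k := by field_simp
        rw [e1] at this
        linarith
      split_ifs with hc
      · have hge : th - c1 ≤ log (P i k / t) := by
          rw [Real.le_log_iff_exp_le (div_pos h0 htp), le_div_iff₀ htp]
          have halT : t ≤ exp c1 * alT i k := htail i hi hwi k
          calc exp (th - c1) * t ≤ exp (th - c1) * (exp c1 * alT i k) :=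
                mul_le_mul_of_nonneg_left halT (exp_pos _).le
            _ = exp th * alT i k := by rw [← mul_assoc, ← exp_add]; ring_nf
            _ ≤ P i k := hc.le
        have := mul_le_mul_of_nonneg_left hge h0.le
        linarith
      · rw [zero_mul]; linarith
  -- (3) the tails have total mass ≤ 1
  have h3 : ∀ i ∈ S, ∑ k, tail S (fun j => w j * P j k) rank (rank i) ≤ 1 := fun i _ => by
    unfold tail
    rw [sum_comm]
    calc ∑ j ∈ S with rank i ≤ rank j, ∑ k, w j * P j k
        ≤ ∑ j ∈ S, ∑ k, w j * P j k :=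
          sum_le_sum_of_subset_of_nonneg (filter_subset _ _) fun j hj _ =>
            sum_nonneg fun k _ => mul_nonneg (hw j hj) (hP j hj k)
      _ = 1 := by
          rw [← hw1]
          exact sum_congr rfl fun i hi => by rw [← mul_sum, hP1 i hi, mul_one]
  -- (4) together
  have h4 : ∑ i ∈ S, w i * ∑ k, P i k * log (P i k / ∑ j ∈ S, w j * P j k) =
      (∑ i ∈ S, w i * ∑ k, P i k * log (P i k / tail S (fun j => w j * P j k) rank (rank i))) -
      ∑ i ∈ S, w i * ∑ k, P i k *
        log ((∑ j ∈ S, w j * P j k) / tail S (fun j => w j * P j k) rank (rank i)) := by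
    rw [← sum_sub_distrib]
    refine sum_congr rfl fun i hi => ?_
    rw [← mul_sub, ← sum_sub_distrib]
    rcases (hw i hi).eq_or_lt with h0 | h0
    · rw [← h0, zero_mul, zero_mul]
    · congr 1
      refine sum_congr rfl fun k _ => ?_
      rcases (hP i hi k).eq_or_lt with hp | hp
      · rw [← hp]; simp
      · have htp : 0 < tail S (fun j => w j * P j k) rank (rank i) :=
          (mul_pos h0 hp).trans_le (hTge i hi k)
        have hsp : 0 < ∑ j ∈ S, w j * P j k :=
          (mul_pos h0 hp).trans_le (single_le_sum (f := fun j => w j * P j k)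
            (fun j hj => mul_nonneg (hw j hj) (hP j hj k)) hi)
        rw [log_div hp.ne' hsp.ne', log_div hp.ne' htp.ne', log_div hsp.ne' htp.ne']
        ring
  have h5 : ∑ i ∈ S, w i * (q * (th - c1) - 1) ≤
      ∑ i ∈ S, w i * ∑ k, P i k * log (P i k / tail S (fun j => w j * P j k) rank (rank i)) := by
    refine sum_le_sum fun i hi => ?_
    rcases (hw i hi).eq_or_lt with h0 | h0
    · rw [← h0, zero_mul, zero_mul]
    · exact mul_le_mul_of_nonneg_left (by linarith [h2 i hi h0, h3 i hi]) h0.le
  rw [← sum_mul, hw1, one_mul] at h5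
  rw [h4]
  linarith

end info

end Vale.Agent.P091.T.H124
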