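import Vale.Agent.P091.HEART.H896.Growth
import Vale.Agent.P091.T.H124.Act

/-!
# P091, heart: the growth lemma for the ordered unexplained rest   (helper124)

`growth0_ord`, `growth_ord`: as `growth0`, `growth` of helper896, but a letter `a` has only to be
unexplained with respect to the background restricted to the letters whose rank is at least that
of `a` (output of `exists_act`).  Loss: `1` more.
-/

set_option autoImplicit false

open Finset Real
open Vale.Agent.P065.Ent

noncomputable section

namespace Vale.Agent.P091.T.H124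

open Vale.Agent.P091.AD Vale.Agent.P091.Heart.H896

/-- the background restricted to the letters of rank `≥ s` -/
def alTail {Γ : Type*} (rank : Γ → ℕ) (α : Γ → ℝ) (s : ℕ) (x : Γ) : ℝ :=
  if s ≤ rank x then α x else 0

lemma alTail_nonneg {Γ : Type*} (rank : Γ → ℕ) {α : Γ → ℝ} (hα : ∀ x, 0 ≤ α x) (s : ℕ) (x : Γ) :
    0 ≤ alTail rank α s x := by
  unfold alTail; split_ifs
  · exact hα x
  · exact le_rfl

variable {Γ : Type*} [AddCommGroup Γ]

section growth0
variable {J V Y : Type*} [Fintype J] [Fintype V]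

/-- **Growth lemma, basic form, ordered.** -/
theorem growth0_ord {μJ : J → ℝ} (hJ : IsProb μJ) {ν : V → ℝ} (hν : IsProb ν) (R : J → Γ)
    (a : V → Γ) (y : V → Y) (rank : Γ → ℕ) (α : Γ → ℝ) (hα : ∀ x, 0 ≤ α x) (b θ τ : ℝ)
    (hcost : ∀ v, 0 < ν v → Pr ν (fun v => (a v, y v)) (a v, y v) ≤ exp b * α (a v) * Pr ν y (y v))
    (hun : ∀ v, 0 < ν v → τ ≤ ∑ j, μJ j *
      (if exp θ * ∑ i, μJ i * alTail rank α (rank (a v)) (R j + a v - R i) < Pr μJ R (R j)
        then 1 else 0))
    (hb : b ≤ θ) :
    H μJ R + τ * (θ - b) - 2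
      ≤ Hc (fun w : J × V => μJ w.1 * ν w.2) (fun w => R w.1 + a w.2) (fun w => y w.2) := by
  classical
  set w : J × V → ℝ := fun w => μJ w.1 * ν w.2 with hw
  have hwp : IsProb w := mul_isProb hJ hν
  set X : J × V → Γ := fun u => R u.1 + a u.2 with hX
  set Yv : J × V → Y := fun u => y u.2 with hY
  set D : Γ → Y → ℝ := fun k z => Pr w (fun u => (X u, Yv u)) (k, z) / Pr w Yv z with hD
  set SF : Γ × Y → Finset (J × V) := fun p => univ.filter fun u => (X u, Yv u) = p with hSF
  set rk : J × V → ℕ := fun u => rank (a u.2) with hrk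
  set Dt : ℕ → Γ → Y → ℝ := fun s k z => tail (SF (k, z)) w rk s / Pr w Yv z with hDt
  set cv : ℕ → Γ → ℝ := fun s k => ∑ i, μJ i * alTail rank α s (k - R i) with hcv
  have hcv0 : ∀ s k, 0 ≤ cv s k := fun s k =>
    sum_nonneg fun i _ => mul_nonneg (hJ.nonneg i) (alTail_nonneg rank hα _ _)
  have hPrS : ∀ p : Γ × Y, Pr w (fun u => (X u, Yv u)) p = ∑ u ∈ SF p, w u := fun p => by
    unfold Pr
    simp only [hSF]
    rw [sum_filter]
    exact sum_congr rfl fun u _ => by split_ifs <;> rfl
  -- the density bound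
  have hPr : ∀ x : Γ, ∀ z : Y, Pr ν (fun v => (a v, y v)) (x, z) ≤ exp b * α x * Pr ν y z := by
    intro x z
    by_cases h : ∃ v, (a v, y v) = (x, z) ∧ 0 < ν v
    · obtain ⟨v, hv, hv0⟩ := h
      have e1 : a v = x := (Prod.mk.inj hv).1
      have e2 : y v = z := (Prod.mk.inj hv).2
      have := hcost v hv0
      rwa [e1, e2] at this
    · have h0 : Pr ν (fun v => (a v, y v)) (x, z) = 0 := by
        unfold Pr
        refine sum_eq_zero fun v _ => ?_
        split_ifs with h1
        · by_contra h2
          exact h ⟨v, h1, lt_of_le_of_ne (hν.nonneg v) (Ne.symm h2)⟩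
        · rfl
      rw [h0]
      exact mul_nonneg (mul_nonneg (exp_pos b).le (hα x)) (Pr_nonneg hν y z)
  have htl : ∀ s k z, tail (SF (k, z)) w rk s =
      ∑ i, μJ i * (if s ≤ rank (k - R i) then Pr ν (fun v => (a v, y v)) (k - R i, z) else 0) := by
    intro s k z
    unfold tail
    simp only [hSF]
    rw [filter_filter, sum_filter, Fintype.sum_prod_type]
    refine sum_congr rfl fun i _ => ?_
    by_cases hs : s ≤ rank (k - R i)
    · rw [if_pos hs]
      unfold Pr
      rw [mul_sum]
      refine sum_congr rfl fun v _ => ?_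
      by_cases h : a v = k - R i ∧ y v = z
      · have e1 : (X (i, v), Yv (i, v)) = (k, z) := by
          simp only [hX, hY]; rw [h.1, h.2]; simp
        have e2 : (a v, y v) = (k - R i, z) := by rw [h.1, h.2]
        have e3 : s ≤ rk (i, v) := by simp only [hrk]; rw [h.1]; exact hs
        rw [if_pos ⟨e1, e3⟩, if_pos e2]
      · rw [if_neg, if_neg, mul_zero]
        · intro e
          exact h ⟨(Prod.mk.inj e).1, (Prod.mk.inj e).2⟩
        · intro e
          refine h ⟨?_, (Prod.mk.inj e.1).2⟩
          rw [← (Prod.mk.inj e.1).1]; simp only [hX]; abel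
    · rw [if_neg hs, mul_zero]
      refine sum_eq_zero fun v _ => ?_
      rw [if_neg]
      intro e
      apply hs
      have h1 : a v = k - R i := by
        rw [← (Prod.mk.inj e.1).1]; simp only [hX]; abel
      rw [← h1]
      exact e.2
  have hDle : ∀ s k z, Dt s k z ≤ exp b * cv s k := by
    intro s k z
    rcases (Pr_nonneg hwp Yv z).eq_or_lt with h0 | h0
    · simp only [hDt]
      rw [← h0, div_zero]
      exact mul_nonneg (exp_pos b).le (hcv0 s k)
    · simp only [hDt]
      rw [div_le_iff₀ h0]
      have e2 : Pr w Yv z = Pr ν y z := Pr_snd μJ hJ ν y z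
      rw [htl, e2]
      calc ∑ i, μJ i * (if s ≤ rank (k - R i) then Pr ν (fun v => (a v, y v)) (k - R i, z) else 0)
          ≤ ∑ i, μJ i * (exp b * alTail rank α s (k - R i) * Pr ν y z) := by
            refine sum_le_sum fun i _ => mul_le_mul_of_nonneg_left ?_ (hJ.nonneg i)
            unfold alTail
            split_ifs
            · exact hPr _ _
            · simp
        _ = exp b * cv s k * Pr ν y z := by
            simp only [hcv]
            rw [mul_sum, sum_mul]
            exact sum_congr rfl fun i _ => by ring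
  have hD0 : ∀ k z, 0 ≤ D k z := fun k z =>
    div_nonneg (Pr_nonneg hwp _ _) (Pr_nonneg hwp _ _)
  -- positivity on the support
  have hmem : ∀ u, u ∈ SF (X u, Yv u) := fun u => by simp only [hSF]; simp
  have htp : ∀ u, 0 < w u → 0 < tail (SF (X u, Yv u)) w rk (rk u) := by
    intro u hu
    unfold tail
    exact hu.trans_le (single_le_sum (f := w) (fun j _ => hwp.nonneg j)
      (mem_filter.2 ⟨hmem u, le_rfl⟩))
  have htD : ∀ u, tail (SF (X u, Yv u)) w rk (rk u) ≤ Pr w (fun u => (X u, Yv u)) (X u, Yv u) := by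
    intro u
    rw [hPrS]
    exact sum_le_sum_of_subset_of_nonneg (filter_subset _ _) fun j _ _ => hwp.nonneg j
  -- the order costs at most one
  have hord : ∑ u, w u * log (D (X u) (Yv u) / Dt (rk u) (X u) (Yv u)) ≤ 1 := by
    have e1 : ∑ u, w u * log (D (X u) (Yv u) / Dt (rk u) (X u) (Yv u)) =
        ∑ u, w u * log ((∑ j ∈ SF (X u, Yv u), w j) / tail (SF (X u, Yv u)) w rk (rk u)) := by
      refine sum_congr rfl fun u _ => ?_
      rcases (hwp.nonneg u).eq_or_lt with h0 | h0
      · rw [← h0, zero_mul, zero_mul]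
      · have hp : 0 < Pr w Yv (Yv u) := Pr_pos hwp Yv h0
        simp only [hD, hDt]
        rw [hPrS, div_div_div_cancel_right₀ hp.ne']
    rw [e1]
    have e2 : ∑ u, w u * log ((∑ j ∈ SF (X u, Yv u), w j) / tail (SF (X u, Yv u)) w rk (rk u)) =
        ∑ p ∈ univ.image (fun u => (X u, Yv u)), ∑ u ∈ SF p,
          w u * log ((∑ j ∈ SF p, w j) / tail (SF p) w rk (rk u)) := by
      rw [← sum_fiberwise_of_maps_to (s := univ) (t := univ.image (fun u => (X u, Yv u)))
        (g := fun u => (X u, Yv u)) (fun u _ => mem_image_of_mem _ (mem_univ u))]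
      refine sum_congr rfl fun p _ => ?_
      simp only [hSF]
      refine sum_congr rfl fun u hu => ?_
      rw [(mem_filter.1 hu).2]
    rw [e2]
    calc _ ≤ ∑ p ∈ univ.image (fun u => (X u, Yv u)), ∑ u ∈ SF p, w u :=
          sum_le_sum fun p _ => order_cost (fun u _ => hwp.nonneg u) rk
      _ = ∑ p ∈ univ.image (fun u => (X u, Yv u)), Pr w (fun u => (X u, Yv u)) p :=
          sum_congr rfl fun p _ => (hPrS p).symm
      _ = 1 := sum_Pr hwp _
  -- the two entropies on the product space
  have hH : H μJ R = ∑ u, w u * (- log (Pr μJ R (R u.1))) := by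
    unfold H
    rw [Fintype.sum_prod_type]
    refine sum_congr rfl fun j _ => ?_
    have : ∀ v, w (j, v) * (- log (Pr μJ R (R j))) = ν v * (μJ j * (- log (Pr μJ R (R j)))) :=
      fun v => by simp only [hw]; ring
    rw [sum_congr rfl fun v _ => this v, ← sum_mul, hν.sum, one_mul]
  have hHc : Hc w X Yv = ∑ u, w u * (- log (D (X u) (Yv u))) := Hc_eq_sum hwp X Yv
  -- the pointwise inequality
  have hpt : ∀ u : J × V, w u * ((θ - b) *
      (if exp θ * ∑ i, μJ i * alTail rank α (rank (a u.2)) (R u.1 + a u.2 - R i) <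
        Pr μJ R (R u.1) then 1 else 0))
      - w u * (D (X u) (Yv u) / Pr μJ R (R u.1))
      - w u * log (D (X u) (Yv u) / Dt (rk u) (X u) (Yv u))
      ≤ w u * (- log (D (X u) (Yv u))) - w u * (- log (Pr μJ R (R u.1))) := by
    intro u
    rcases (hwp.nonneg u).eq_or_lt with h0 | h0
    · rw [← h0]; simp
    · have hj : 0 < μJ u.1 := by
        have h1 : 0 ≤ μJ u.1 := hJ.nonneg _
        rcases h1.eq_or_lt with h | h
        · exfalso; simp only [hw] at h0; rw [← h, zero_mul] at h0; exact lt_irrefl _ h0
        · exact h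
      have p1 : 0 < Pr μJ R (R u.1) := Pr_pos hJ R hj
      have hp : 0 < Pr w Yv (Yv u) := Pr_pos hwp Yv h0
      have p2 : 0 < D (X u) (Yv u) := by
        simp only [hD]
        exact div_pos (Pr_pos hwp (fun u => (X u, Yv u)) h0) hp
      have p3 : 0 < Dt (rk u) (X u) (Yv u) := by
        simp only [hDt]
        exact div_pos (htp u h0) hp
      have p4 : Dt (rk u) (X u) (Yv u) ≤ D (X u) (Yv u) := by
        simp only [hDt, hD]
        exact div_le_div_of_nonneg_right (htD u) hp.le
      rw [← mul_sub, ← mul_sub, ← mul_sub]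
      refine mul_le_mul_of_nonneg_left ?_ h0.le
      have hq : - log (D (X u) (Yv u)) - -log (Pr μJ R (R u.1))
          = - log (Dt (rk u) (X u) (Yv u) / Pr μJ R (R u.1))
            - log (D (X u) (Yv u) / Dt (rk u) (X u) (Yv u)) := by
        rw [log_div p3.ne' p1.ne', log_div p2.ne' p3.ne']; ring
      rw [hq]
      refine sub_le_sub_right ?_ _
      have h7 : Dt (rk u) (X u) (Yv u) / Pr μJ R (R u.1) ≤ D (X u) (Yv u) / Pr μJ R (R u.1) :=
        div_le_div_of_nonneg_right p4 p1.le
      split_ifs with hT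
      · rw [mul_one]
        have h2 : Dt (rk u) (X u) (Yv u) / Pr μJ R (R u.1) ≤ exp (b - θ) := by
          rw [div_le_iff₀ p1]
          refine (hDle _ _ _).trans ?_
          have h3 : exp b * cv (rk u) (X u) = exp (b - θ) * (exp θ * cv (rk u) (X u)) := by
            rw [← mul_assoc, ← exp_add]; congr 2; ring
          rw [h3]
          exact mul_le_mul_of_nonneg_left hT.le (exp_pos _).le
        have h4 : log (Dt (rk u) (X u) (Yv u) / Pr μJ R (R u.1)) ≤ b - θ := by
          have := log_le_log (div_pos p3 p1) h2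
          rwa [log_exp] at this
        have h5 : 0 < D (X u) (Yv u) / Pr μJ R (R u.1) := div_pos p2 p1
        linarith
      · have h5 : 0 < Dt (rk u) (X u) (Yv u) / Pr μJ R (R u.1) := div_pos p3 p1
        have h6 := log_le_sub_one_of_pos h5
        linarith
  have hsum := sum_le_sum fun u (_ : u ∈ (univ : Finset (J × V))) => hpt u
  rw [sum_sub_distrib, sum_sub_distrib, sum_sub_distrib, ← hHc, ← hH] at hsum
  -- the main term
  have hmain : τ * (θ - b) ≤ ∑ u : J × V, w u * ((θ - b) *
      (if exp θ * ∑ i, μJ i * alTail rank α (rank (a u.2)) (R u.1 + a u.2 - R i) <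
        Pr μJ R (R u.1) then 1 else 0)) := by
    rw [Fintype.sum_prod_type_right]
    calc τ * (θ - b) = ∑ v, ν v * (τ * (θ - b)) := by rw [← sum_mul, hν.sum, one_mul]
      _ ≤ _ := by
        refine sum_le_sum fun v _ => ?_
        rcases (hν.nonneg v).eq_or_lt with h0 | h0
        · simp only [hw]
          rw [← h0]; simp
        · have h1 := mul_le_mul_of_nonneg_right (hun v h0) (sub_nonneg.mpr hb)
          have h2 : ∑ j, w (j, v) * ((θ - b) *
              (if exp θ * ∑ i, μJ i * alTail rank α (rank (a v)) (R j + a v - R i) <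
                Pr μJ R (R j) then 1 else 0))
              = ν v * ((∑ j, μJ j *
              (if exp θ * ∑ i, μJ i * alTail rank α (rank (a v)) (R j + a v - R i) <
                Pr μJ R (R j) then 1 else 0)) * (θ - b)) := by
            rw [sum_mul, mul_sum]
            exact sum_congr rfl fun j _ => by simp only [hw]; ring
          rw [h2]
          exact mul_le_mul_of_nonneg_left h1 h0.le
  -- the error term
  have herr : ∑ u : J × V, w u * (D (X u) (Yv u) / Pr μJ R (R u.1)) ≤ 1 := by
    rw [Fintype.sum_prod_type_right]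
    calc _ ≤ ∑ v, ν v * 1 := by
          refine sum_le_sum fun v _ => ?_
          rcases (hν.nonneg v).eq_or_lt with h0 | h0
          · simp only [hw]
            rw [← h0]; simp
          · have e1 : ∑ j, w (j, v) * (D (X (j, v)) (Yv (j, v)) / Pr μJ R (R j))
                = ν v * ∑ j, μJ j * (fun r => D (r + a v) (y v) / Pr μJ R r) (R j) := by
              rw [mul_sum]
              exact sum_congr rfl fun j _ => by simp only [hw, hX, hY]; ring
            rw [e1, sum_fiber μJ R (fun r => D (r + a v) (y v) / Pr μJ R r)]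
            refine mul_le_mul_of_nonneg_left ?_ h0.le
            have hyv : 0 < Pr w Yv (y v) := by
              have : Pr w Yv (y v) = Pr ν y (y v) := Pr_snd μJ hJ ν y (y v)
              rw [this]; exact Pr_pos hν y h0
            have e2 : ∀ r ∈ univ.image R, Pr μJ R r * (D (r + a v) (y v) / Pr μJ R r)
                ≤ Pr w (fun u => (X u, Yv u)) (r + a v, y v) / Pr w Yv (y v) := by
              intro r _
              rcases (Pr_nonneg hJ R r).eq_or_lt with h1 | h1
              · rw [← h1, zero_mul]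
                exact hD0 _ _
              · rw [mul_div_cancel₀ _ h1.ne']
            refine (sum_le_sum e2).trans ?_
            rw [← sum_div, div_le_one hyv]
            have e3 : ∑ r ∈ univ.image R, Pr w (fun u => (X u, Yv u)) (r + a v, y v)
                = ∑ x ∈ (univ.image R).image (fun r => r + a v),
                    Pr w (fun u => (X u, Yv u)) (x, y v) :=
              (sum_image (f := fun x => Pr w (fun u => (X u, Yv u)) (x, y v))
                (fun r _ r' _ h => add_right_cancel h)).symm
            rw [e3]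
            have e4 : (univ.image R).image (fun r => r + a v) ⊆ univ.image X := by
              intro x hx
              obtain ⟨r, hr, rfl⟩ := mem_image.mp hx
              obtain ⟨j, -, rfl⟩ := mem_image.mp hr
              exact mem_image.mpr ⟨(j, v), mem_univ _, rfl⟩
            refine (sum_le_sum_of_subset_of_nonneg e4 fun x _ _ => Pr_nonneg hwp _ _).trans ?_
            exact (sum_Pr_pair w X Yv (y v)).le
      _ = 1 := by rw [← sum_mul, hν.sum, one_mul]
  linarith

end growth0

section letters
variable {Γ : Type} [AddCommGroup Γ] (lam : Law Γ)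

/-- **Growth lemma, ordered.** -/
theorem growth_ord {J : Type*} [Fintype J] {μJ : J → ℝ} (hJ : IsProb μJ) (R : J → Γ)
    (rank : Γ → ℕ) (α : Γ → ℝ) (hα : ∀ x, 0 ≤ α x) (b θ τ : ℝ)
    (hcost : ∀ ω, Pr lam.μ (fun ω => (lam.a ω, lam.z ω)) (lam.a ω, lam.z ω)
      ≤ exp b * α (lam.a ω) * Pr lam.μ lam.z (lam.z ω))
    (hun : ∀ ω, τ ≤ ∑ j, μJ j *
      (if exp θ * ∑ i, μJ i * alTail rank α (rank (lam.a ω)) (R j + lam.a ω - R i) <
        Pr μJ R (R j) then 1 else 0))
    (hb : b ≤ θ) :
    H μJ R + τ * (θ - b) - 2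
      ≤ H (fun w : J × lam.Lt => μJ w.1 * lam.beta w.2) (fun w => R w.1 + lam.N w.2) := by
  classical
  have hβ := lam.beta_isProb
  have hw : IsProb (fun w : J × lam.Lt => μJ w.1 * lam.beta w.2) := mul_isProb hJ hβ
  have h1 := growth0_ord hJ hβ R (fun u : lam.Lt => lam.a u.1) (fun u : lam.Lt => u.2) rank α hα
    b θ τ
    (by
      intro u hu
      show Pr lam.beta (fun u : lam.Lt => (lam.a u.1, u.2)) (lam.a u.1, u.2) ≤
        exp b * α (lam.a u.1) * Pr lam.beta (fun u : lam.Lt => u.2) u.2
      have hz : lam.z u.1 = lam.z u.2 := by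
        by_contra h
        have : lam.beta u = 0 := by
          unfold Law.beta cc; rw [if_neg h]
        rw [this] at hu; exact lt_irrefl _ hu
      have hμ2 : 0 < lam.μ u.2 := by
        rcases (lam.prob.nonneg u.2).eq_or_lt with h | h
        · exfalso
          have : lam.beta u = 0 := by
            unfold Law.beta cc; rw [if_pos hz, ← h]; simp
          rw [this] at hu; exact lt_irrefl _ hu
        · exact h
      have hp := Pr_pos lam.prob lam.z hμ2
      rw [Pr_beta_snd]
      have e := Pr_beta_pair lam (lam.a u.1) u.2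
      have hc := hcost u.1
      rw [hz] at hc
      have h3 : Pr lam.beta (fun u : lam.Lt => (lam.a u.1, u.2)) (lam.a u.1, u.2)
          * Pr lam.μ lam.z (lam.z u.2) ≤ (exp b * α (lam.a u.1) * lam.μ u.2)
            * Pr lam.μ lam.z (lam.z u.2) := by
        rw [e]
        calc lam.μ u.2 * Pr lam.μ (fun ω => (lam.a ω, lam.z ω)) (lam.a u.1, lam.z u.2)
            ≤ lam.μ u.2 * (exp b * α (lam.a u.1) * Pr lam.μ lam.z (lam.z u.2)) :=
              mul_le_mul_of_nonneg_left hc hμ2.le
          _ = _ := by ring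
      exact le_of_mul_le_mul_right h3 hp)
    (fun u _ => hun u.1) hb
  refine h1.trans ?_
  have e : Hc (fun w : J × lam.Lt => μJ w.1 * lam.beta w.2) (fun w => R w.1 + lam.a w.2.1)
      (fun w => w.2.2) = Hc (fun w : J × lam.Lt => μJ w.1 * lam.beta w.2)
      (fun w => R w.1 + lam.N w.2) (fun w => w.2.2) := by
    unfold Hc
    congr 1
    refine H_congr ?_ ?_
    · intro w w' h
      have h1 : R w.1 + lam.a w.2.1 = R w'.1 + lam.a w'.2.1 := (Prod.mk.inj h).1
      have h2 : w.2.2 = w'.2.2 := (Prod.mk.inj h).2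
      refine Prod.ext ?_ h2
      show R w.1 + (lam.a w.2.1 - lam.a w.2.2) = R w'.1 + (lam.a w'.2.1 - lam.a w'.2.2)
      rw [h2, ← add_sub_assoc, ← add_sub_assoc, h1]
    · intro w w' h
      have h1 : R w.1 + (lam.a w.2.1 - lam.a w.2.2) = R w'.1 + (lam.a w'.2.1 - lam.a w'.2.2) :=
        (Prod.mk.inj h).1
      have h2 : w.2.2 = w'.2.2 := (Prod.mk.inj h).2
      refine Prod.ext ?_ h2
      show R w.1 + lam.a w.2.1 = R w'.1 + lam.a w'.2.1
      rw [h2, ← add_sub_assoc, ← add_sub_assoc] at h1
      exact sub_left_injective h1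
  rw [e]
  exact Hc_le_H hw _ _

end letters

end Vale.Agent.P091.T.H124
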