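import Vale.Agent.P091.T.Defs

/-!
# P091, heart, row E1: the local x-side of a stage   (helper124)

One node `(j, a)`, list `J`: list laws, population `al`, explained weights, top stage, cost of an
activation, mass of the exceptional classes.
-/

set_option autoImplicit false

open Finset Real
open Vale.Agent.P091.Spec
open Vale.Agent.P065.Ent

noncomputable section

namespace Vale.Agent.P091.T.H124

open Vale.Agent.P091.T

/-! ## averages -/

lemma av_nonneg {n j a : ℕ} {f : ℕ → ℝ} (h : ∀ i, 0 ≤ f i) : 0 ≤ av n j a f :=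
  div_nonneg (sum_nonneg fun i _ => h i) (by positivity)

lemma av_sum' {ι : Type*} (s : Finset ι) (n j a : ℕ) (f : ι → ℕ → ℝ) :
    ∑ k ∈ s, av n j a (f k) = av n j a fun i => ∑ k ∈ s, f k i := by
  unfold av
  rw [← sum_div, sum_comm]

lemma av_le_one {n j a : ℕ} {f : ℕ → ℝ} (h : ∀ i, f i ≤ 1) : av n j a f ≤ 1 := by
  unfold av
  rw [div_le_one (by positivity)]
  calc ∑ i ∈ nd n j a, f i ≤ ∑ _i ∈ nd n j a, (1:ℝ) := sum_le_sum fun i _ => h i
    _ = ((nd n j a).card : ℝ) := by simp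
    _ = 2 ^ (n - j) := by
        unfold nd
        rw [Nat.card_Ico]
        have : (a + 1) * 2 ^ (n - j) - a * 2 ^ (n - j) = 2 ^ (n - j) := by
          rw [add_mul, one_mul, Nat.add_sub_cancel_left]
        rw [this]; push_cast; ring

/-! ## list laws -/

section laws
variable {n b : ℕ}

lemma lawR_nonneg {J : List (Un n b)} (hJ : ∀ k ∈ J, IsProb k.P) (r : ZMod (2 ^ (n + b))) :
    0 ≤ lawR J r := by
  induction J generalizing r with
  | nil => unfold lawR; split_ifs <;> norm_num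
  | cons k J ih =>
    unfold lawR
    exact sum_nonneg fun s _ => mul_nonneg ((hJ k (by simp)).nonneg s)
      (ih (fun k' hk' => hJ k' (by simp [hk'])) _)

lemma sum_lawR {J : List (Un n b)} (hJ : ∀ k ∈ J, IsProb k.P) : ∑ r, lawR J r = 1 := by
  induction J with
  | nil =>
    unfold lawR
    rw [sum_ite_eq']; simp
  | cons k J ih =>
    unfold lawR
    rw [sum_comm]
    calc ∑ s, ∑ r, k.P s * lawR J (r - s) = ∑ s, k.P s * 1 := by
          refine sum_congr rfl fun s _ => ?_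
          rw [← mul_sum, Fintype.sum_equiv (Equiv.subRight s) (fun r => lawR J (r - s)) (lawR J)
            (fun _ => rfl), ih (fun k' hk' => hJ k' (by simp [hk']))]
      _ = 1 := by simp only [mul_one]; exact (hJ k (by simp)).sum

lemma lawR_isProb {J : List (Un n b)} (hJ : ∀ k ∈ J, IsProb k.P) : IsProb (lawR J) :=
  ⟨lawR_nonneg hJ, sum_lawR hJ⟩

lemma pj_nonneg {J : List (Un n b)} (hJ : ∀ k ∈ J, IsProb k.P) (j : ℕ)
    (κ : ZMod (2 ^ (n + b - j))) : 0 ≤ pj J j κ := Pr_nonneg (lawR_isProb hJ) _ _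

lemma sum_pj {J : List (Un n b)} (hJ : ∀ k ∈ J, IsProb k.P) (j : ℕ) :
    ∑ κ, pj J j κ = 1 := by
  classical
  unfold pj Pr
  rw [sum_comm, ← sum_lawR hJ]
  refine sum_congr rfl fun r _ => ?_
  exact (sum_eq_single (rd n b j r) (fun κ _ hκ => if_neg (Ne.symm hκ))
    (fun h => absurd (mem_univ _) h)).trans (if_pos rfl)

lemma sum_pj_sub {J : List (Un n b)} (hJ : ∀ k ∈ J, IsProb k.P) (j : ℕ)
    (c : ZMod (2 ^ (n + b - j))) : ∑ κ, pj J j (κ - c) = 1 := by
  rw [Fintype.sum_equiv (Equiv.subRight c) (fun κ => pj J j (κ - c)) (pj J j) (fun _ => rfl),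
    sum_pj hJ]

end laws

/-! ## population, explained weights -/

section pop
variable {C1 D : ℝ} {n b : ℕ} {ι : Type} [Fintype ι] (d : ZData C1 D n b ι) {J : List (Un n b)}

/-- mass of the class `k` in the node -/
def cm (j a : ℕ) (k : ι) : ℝ := av n j a (d.a k)

lemma cm_nonneg (j a : ℕ) (k : ι) : 0 ≤ cm d j a k := av_nonneg (d.a_nonneg k)

lemma sum_cm_le (j a : ℕ) (s : Finset ι) : ∑ k ∈ s, cm d j a k ≤ 1 := by
  unfold cm
  rw [av_sum']
  exact av_le_one fun i => (sum_le_sum_of_subset_of_nonneg (subset_univ s)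
    fun k _ _ => d.a_nonneg k i).trans (d.a_sum i)

lemma al_nonneg (hJ : ∀ k ∈ J, IsProb k.P) (j a : ℕ) (κ : ZMod (2 ^ (n + b - j))) :
    0 ≤ al d J j a κ :=
  sum_nonneg fun k _ => mul_nonneg (cm_nonneg d j a k) (pj_nonneg hJ j _)

lemma sum_al (hJ : ∀ k ∈ J, IsProb k.P) (j a : ℕ) :
    ∑ κ, al d J j a κ = ∑ k, cm d j a k := by
  unfold al
  rw [sum_comm]
  refine sum_congr rfl fun k _ => ?_
  rw [← mul_sum, sum_pj_sub hJ, mul_one]
  rfl

lemma sum_al_le (hJ : ∀ k ∈ J, IsProb k.P) (j a : ℕ) : ∑ κ, al d J j a κ ≤ 1 := by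
  rw [sum_al d hJ]; exact sum_cm_le d j a univ

lemma cm_mul_pj_le (hJ : ∀ k ∈ J, IsProb k.P) (j a : ℕ) (k : ι) (κ : ZMod (2 ^ (n + b - j))) :
    cm d j a k * pj J j (κ - rd n b j (d.r k)) ≤ al d J j a κ :=
  single_le_sum (f := fun k => av n j a (d.a k) * pj J j (κ - rd n b j (d.r k)))
    (fun k _ => mul_nonneg (cm_nonneg d j a k) (pj_nonneg hJ j _)) (mem_univ k)

open Classical in
/-- the explained weight of the list element `κ` of the class `k` -/
def we (J : List (Un n b)) (θ : ℝ) (j a : ℕ) (k : ι) (κ : ZMod (2 ^ (n + b - j))) : ℝ :=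
  if pj J j (κ - rd n b j (d.r k)) ≤ Real.exp θ * al d J j a κ then
    pj J j (κ - rd n b j (d.r k)) else 0

lemma we_nonneg (hJ : ∀ k ∈ J, IsProb k.P) (θ : ℝ) (j a : ℕ) (k : ι)
    (κ : ZMod (2 ^ (n + b - j))) : 0 ≤ we d J θ j a k κ := by
  unfold we; split_ifs
  · exact pj_nonneg hJ j _
  · exact le_rfl

lemma we_le_pj (hJ : ∀ k ∈ J, IsProb k.P) (θ : ℝ) (j a : ℕ) (k : ι)
    (κ : ZMod (2 ^ (n + b - j))) : we d J θ j a k κ ≤ pj J j (κ - rd n b j (d.r k)) := by
  unfold we; split_ifs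
  · exact le_rfl
  · exact pj_nonneg hJ j _

/-- (L3) -/
lemma we_le_al (hJ : ∀ k ∈ J, IsProb k.P) (θ : ℝ) (j a : ℕ) (k : ι)
    (κ : ZMod (2 ^ (n + b - j))) : we d J θ j a k κ ≤ Real.exp θ * al d J j a κ := by
  unfold we; split_ifs with h
  · exact h
  · exact mul_nonneg (Real.exp_pos θ).le (al_nonneg d hJ j a κ)

/-- (L3) the total explained weight -/
lemma sum_we (θ : ℝ) (j a : ℕ) (k : ι) : ∑ κ, we d J θ j a k κ = xp d J θ j a k := by
  classical
  unfold xp
  refine (Fintype.sum_equiv (Equiv.addLeft (rd n b j (d.r k))) _ (we d J θ j a k)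
    fun s => ?_).symm
  unfold we
  simp only [Equiv.coe_addLeft, add_sub_cancel_left]

lemma xp_le_one (hJ : ∀ k ∈ J, IsProb k.P) (θ : ℝ) (j a : ℕ) (k : ι) :
    xp d J θ j a k ≤ 1 := by
  rw [← sum_we]
  exact (sum_le_sum fun κ _ => we_le_pj d hJ θ j a k κ).trans (sum_pj_sub hJ j _).le

lemma xp_nonneg (hJ : ∀ k ∈ J, IsProb k.P) (θ : ℝ) (j a : ℕ) (k : ι) :
    0 ≤ xp d J θ j a k := by
  rw [← sum_we]; exact sum_nonneg fun κ _ => we_nonneg d hJ θ j a k κ

lemma xp_mono (hJ : ∀ k ∈ J, IsProb k.P) {θ θ' : ℝ} (h : θ ≤ θ') (j a : ℕ) (k : ι) :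
    xp d J θ j a k ≤ xp d J θ' j a k := by
  rw [← sum_we, ← sum_we]
  refine sum_le_sum fun κ _ => ?_
  by_cases h1 : pj J j (κ - rd n b j (d.r k)) ≤ Real.exp θ * al d J j a κ
  · have h2 : pj J j (κ - rd n b j (d.r k)) ≤ Real.exp θ' * al d J j a κ :=
      h1.trans (mul_le_mul_of_nonneg_right (Real.exp_le_exp.2 h) (al_nonneg d hJ j a κ))
    unfold we
    rw [if_pos h1, if_pos h2]
  · unfold we
    rw [if_neg h1]
    exact we_nonneg d hJ θ' j a k κ

lemma not_unx {θ : ℝ} {j a : ℕ} {k : ι} : ¬ Unx d J θ j a k ↔ 3 / 8 ≤ xp d J θ j a k := by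
  unfold Unx; exact not_lt

/-- (L2) top stage: a class with the floor explains itself -/
lemma xp_top (hJ : ∀ k ∈ J, IsProb k.P) {θ : ℝ} {j a : ℕ} {k : ι} (hθ : C1 * D ≤ θ)
    (hfl : Real.exp (-(C1 * D)) ≤ av n j a (d.a k)) : xp d J θ j a k = 1 := by
  rw [← sum_we, ← sum_pj_sub hJ j (rd n b j (d.r k))]
  refine sum_congr rfl fun κ _ => ?_
  unfold we
  refine if_pos ?_
  have h1 := cm_mul_pj_le d hJ j a k κ
  have h2 := pj_nonneg hJ j (κ - rd n b j (d.r k))
  calc pj J j (κ - rd n b j (d.r k))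
      = (Real.exp (C1 * D) * Real.exp (-(C1 * D))) * pj J j (κ - rd n b j (d.r k)) := by
        rw [← Real.exp_add]; simp
    _ ≤ (Real.exp θ * cm d j a k) * pj J j (κ - rd n b j (d.r k)) := by
        refine mul_le_mul_of_nonneg_right ?_ h2
        exact mul_le_mul (Real.exp_le_exp.2 hθ) hfl (Real.exp_pos _).le (Real.exp_pos _).le
    _ = Real.exp θ * (cm d j a k * pj J j (κ - rd n b j (d.r k))) := by ring
    _ ≤ Real.exp θ * al d J j a κ := mul_le_mul_of_nonneg_left h1 (Real.exp_pos _).le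

/-! ## cost of an activation -/

/-- `∑ α log (r/α) ≤ A log (R/A)` -/
lemma sum_mul_log_div_le {K : Type*} (s : Finset K) (α r : K → ℝ) (hα : ∀ k ∈ s, 0 ≤ α k)
    (hr : ∀ k ∈ s, 0 ≤ r k) (h0 : ∀ k ∈ s, α k ≠ 0 → r k ≠ 0) {R : ℝ} (hR : ∑ k ∈ s, r k ≤ R)
    (hA : 0 < ∑ k ∈ s, α k) :
    ∑ k ∈ s, α k * log (r k / α k) ≤ (∑ k ∈ s, α k) * log (R / ∑ k ∈ s, α k) := by
  set A := ∑ k ∈ s, α k with hAdef
  have hRp : 0 < R := by
    obtain ⟨k, hk, hk0⟩ : ∃ k ∈ s, α k ≠ 0 := by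
      by_contra hne
      refine hA.ne' ?_
      rw [hAdef]
      exact sum_eq_zero fun k hk => by
        by_contra h
        exact hne ⟨k, hk, h⟩
    exact (lt_of_le_of_ne (hr k hk) (h0 k hk hk0).symm).trans_le ((single_le_sum hr hk).trans hR)
  -- α log(r/α) ≤ α log(R/A) + A r/R - α
  have key : ∀ k ∈ s, α k * log (r k / α k) ≤ α k * log (R / A) + (A / R * r k - α k) := by
    intro k hk
    rcases (hα k hk).eq_or_lt with h | h
    · rw [← h]
      simp only [zero_mul, zero_add, sub_zero]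
      exact mul_nonneg (div_nonneg hA.le hRp.le) (hr k hk)
    · have hrp : 0 < r k := lt_of_le_of_ne (hr k hk) (h0 k hk h.ne').symm
      have e : log (r k / α k) = log (R / A) + log (A * r k / (R * α k)) := by
        rw [log_div hrp.ne' h.ne', log_div hRp.ne' hA.ne', log_div (by positivity) (by positivity),
          log_mul hA.ne' hrp.ne', log_mul hRp.ne' h.ne']
        ring
      rw [e, mul_add]
      refine add_le_add_right ?_ _
      have h1 := log_le_sub_one_of_pos (show 0 < A * r k / (R * α k) by positivity)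
      calc α k * log (A * r k / (R * α k)) ≤ α k * (A * r k / (R * α k) - 1) :=
            mul_le_mul_of_nonneg_left h1 h.le
        _ = A / R * r k - α k := by field_simp
  calc ∑ k ∈ s, α k * log (r k / α k)
      ≤ ∑ k ∈ s, (α k * log (R / A) + (A / R * r k - α k)) := sum_le_sum key
    _ = A * log (R / A) + (A / R * (∑ k ∈ s, r k) - A) := by
        rw [sum_add_distrib, sum_sub_distrib, ← sum_mul, ← mul_sum]
    _ ≤ A * log (R / A) + 0 := by
        refine add_le_add_right ?_ _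
        have : A / R * (∑ k ∈ s, r k) ≤ A / R * R :=
          mul_le_mul_of_nonneg_left hR (div_nonneg hA.le hRp.le)
        rw [div_mul_cancel₀ _ hRp.ne'] at this
        linarith
    _ = _ := add_zero _

/-- the class mass of the list element `κ` for the set `E` of letters -/
def ae (J : List (Un n b)) (θ : ℝ) (j a : ℕ) (E : Finset ι) (κ : ZMod (2 ^ (n + b - j))) : ℝ :=
  ∑ k ∈ E, cm d j a k * we d J θ j a k κ

lemma ae_nonneg (hJ : ∀ k ∈ J, IsProb k.P) (θ : ℝ) (j a : ℕ) (E : Finset ι)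
    (κ : ZMod (2 ^ (n + b - j))) : 0 ≤ ae d J θ j a E κ :=
  sum_nonneg fun k _ => mul_nonneg (cm_nonneg d j a k) (we_nonneg d hJ θ j a k κ)

lemma ae_le_al (hJ : ∀ k ∈ J, IsProb k.P) (θ : ℝ) (j a : ℕ) (E : Finset ι)
    (κ : ZMod (2 ^ (n + b - j))) : ae d J θ j a E κ ≤ al d J j a κ := by
  unfold ae al
  calc ∑ k ∈ E, cm d j a k * we d J θ j a k κ
      ≤ ∑ k ∈ E, av n j a (d.a k) * pj J j (κ - rd n b j (d.r k)) :=
        sum_le_sum fun k _ => mul_le_mul_of_nonneg_left (we_le_pj d hJ θ j a k κ)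
          (cm_nonneg d j a k)
    _ ≤ _ := sum_le_sum_of_subset_of_nonneg (subset_univ E) fun k _ _ =>
        mul_nonneg (cm_nonneg d j a k) (pj_nonneg hJ j _)

lemma sum_ae (θ : ℝ) (j a : ℕ) (E : Finset ι) :
    ∑ κ, ae d J θ j a E κ = ∑ k ∈ E, cm d j a k * xp d J θ j a k := by
  unfold ae
  rw [sum_comm]
  exact sum_congr rfl fun k _ => by rw [← mul_sum, sum_we]

/-- (L4) **Cost of the activation of `E`.** -/
theorem act_cost_le (hJ : ∀ k ∈ J, IsProb k.P) (θ : ℝ) (j a : ℕ) (E : Finset ι)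
    (hE : ∀ k ∈ E, 3 / 8 ≤ xp d J θ j a k) (hm : 0 < ∑ k ∈ E, cm d j a k) :
    ∑ κ, ae d J θ j a E κ * log (al d J j a κ / ae d J θ j a E κ) ≤
      (∑ k ∈ E, cm d j a k) * (log (∑ k ∈ E, cm d j a k)⁻¹ + 1) := by
  set m := ∑ k ∈ E, cm d j a k with hmdef
  have hm1 : m ≤ 1 := sum_cm_le d j a E
  have hlow : 3 / 8 * m ≤ ∑ κ, ae d J θ j a E κ := by
    rw [sum_ae, hmdef, mul_sum]
    exact sum_le_sum fun k hk => by
      have := mul_le_mul_of_nonneg_left (hE k hk) (cm_nonneg d j a k)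
      linarith
  have hup : ∑ κ, ae d J θ j a E κ ≤ m := by
    rw [sum_ae, hmdef]
    exact sum_le_sum fun k _ => mul_le_of_le_one_right (cm_nonneg d j a k) (xp_le_one d hJ θ j a k)
  have hpos : 0 < ∑ κ, ae d J θ j a E κ := lt_of_lt_of_le (by linarith) hlow
  have h1 := sum_mul_log_div_le univ (ae d J θ j a E) (al d J j a)
    (fun κ _ => ae_nonneg d hJ θ j a E κ) (fun κ _ => al_nonneg d hJ j a κ)
    (fun κ _ h => by
      intro h2
      have h3 := ae_le_al d hJ θ j a E κ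
      rw [h2] at h3
      exact h (le_antisymm h3 (ae_nonneg d hJ θ j a E κ))) (sum_al_le d hJ j a) hpos
  refine h1.trans ?_
  set A := ∑ κ, ae d J θ j a E κ with hAdef
  have h2 : log (1 / A) ≤ log m⁻¹ + 1 := by
    have e1 : (1:ℝ) / A ≤ m⁻¹ * (8 / 3) := by
      rw [div_le_iff₀ hpos]
      have : m⁻¹ * (8 / 3) * (3 / 8 * m) = 1 := by field_simp
      calc (1:ℝ) = m⁻¹ * (8 / 3) * (3 / 8 * m) := this.symm
        _ ≤ m⁻¹ * (8 / 3) * A := mul_le_mul_of_nonneg_left hlow (by positivity)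
    have e2 : log ((8:ℝ) / 3) ≤ 1 := by
      rw [Real.log_le_iff_le_exp (by norm_num)]
      have := Real.exp_one_gt_d9
      linarith
    calc log (1 / A) ≤ log (m⁻¹ * (8 / 3)) := log_le_log (by positivity) e1
      _ = log m⁻¹ + log (8 / 3) := log_mul (by positivity) (by norm_num)
      _ ≤ log m⁻¹ + 1 := by linarith
  have h3 : 0 ≤ log m⁻¹ + 1 := by
    have : 0 ≤ log m⁻¹ := log_nonneg (by rw [one_le_inv₀ hm]; exact hm1)
    linarith
  exact (mul_le_mul_of_nonneg_left h2 hpos.le).trans (mul_le_mul_of_nonneg_right hup h3)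

/-- (L4) with a lower bound of the activated mass -/
theorem act_cost_le' (hJ : ∀ k ∈ J, IsProb k.P) (θ : ℝ) (j a : ℕ) (E : Finset ι)
    (hE : ∀ k ∈ E, 3 / 8 ≤ xp d J θ j a k) {t : ℝ} (ht : Real.exp (-t) ≤ ∑ k ∈ E, cm d j a k) :
    ∑ κ, ae d J θ j a E κ * log (al d J j a κ / ae d J θ j a E κ) ≤
      (∑ k ∈ E, cm d j a k) * (t + 1) := by
  have hm : 0 < ∑ k ∈ E, cm d j a k := (Real.exp_pos _).trans_le ht
  refine (act_cost_le d hJ θ j a E hE hm).trans (mul_le_mul_of_nonneg_left ?_ hm.le)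
  have : log (∑ k ∈ E, cm d j a k)⁻¹ ≤ t := by
    rw [log_inv]
    have := log_le_log (Real.exp_pos _) ht
    rw [log_exp] at this
    linarith
  linarith

/-- (L5) mass of the biased classes in a set -/
theorem exc_mass_le (q : ℕ → ℝ) (θ δ : ℝ) (j a : ℕ) (U : Finset ι) (B : Finset ι)
    (hB : ∀ k ∈ B, k ∈ U ∧ Bia d q δ j a k) (X : Finset ι)
    (hX : ∀ k ∈ B, ¬ Unx d J θ j a k → k ∈ X) :
    ∑ k ∈ B, cm d j a k ≤ ubm d J q θ δ j a + ∑ k ∈ X, cm d j a k := by
  classical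
  have h1 : ∑ k ∈ B, cm d j a k = ∑ k ∈ B with Unx d J θ j a k, cm d j a k +
      ∑ k ∈ B with ¬ Unx d J θ j a k, cm d j a k := (sum_filter_add_sum_filter_not _ _ _).symm
  rw [h1]
  refine add_le_add ?_ ?_
  · unfold ubm
    rw [sum_filter]
    calc ∑ k ∈ B, (if Unx d J θ j a k then cm d j a k else 0)
        ≤ ∑ k ∈ B, (if Unx d J θ j a k ∧ Bia d q δ j a k then av n j a (d.a k) else 0) := by
          refine sum_le_sum fun k hk => ?_
          by_cases h : Unx d J θ j a k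
          · rw [if_pos h, if_pos ⟨h, (hB k hk).2⟩]; exact le_rfl
          · rw [if_neg h]
            split_ifs
            · exact cm_nonneg d j a k
            · exact le_rfl
      _ ≤ _ := sum_le_sum_of_subset_of_nonneg (subset_univ B) fun k _ _ => by
          split_ifs
          · exact cm_nonneg d j a k
          · exact le_rfl
  · refine sum_le_sum_of_subset_of_nonneg (fun k hk => ?_) fun k _ _ => cm_nonneg d j a k
    rw [mem_filter] at hk
    exact hX k hk.1 hk.2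

end pop

/-! ## the thresholds -/

/-- `th` at the last stage -/
lemma th_sm {A C1 D : ℝ} (hA : 0 < A) (hC : 0 ≤ C1) (hD : 0 ≤ D) :
    (C1 + 1) * D ≤ th A D (sm A C1 D) := by
  unfold th
  have hl : (0:ℝ) < ll D := by
    have : 0 < ll D := by unfold ll; omega
    exact_mod_cast this
  set x : ℝ := (C1 + 1) * ll D / A with hx
  have hxp : 0 < x := by positivity
  have h1 : x ≤ (2:ℝ) ^ (((sm A C1 D : ℕ) : ℝ) / 4) := by
    have h2 : Real.logb 2 x ≤ ((sm A C1 D : ℕ) : ℝ) / 4 := by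
      have h3 : 4 * Real.logb 2 x ≤ (sm A C1 D : ℕ) := by
        unfold sm
        push_cast
        have := Nat.le_ceil (4 * Real.logb 2 x)
        linarith
      linarith
    rwa [← Real.logb_le_iff_le_rpow one_lt_two hxp]
  calc (C1 + 1) * D = A * x / ll D * D := by rw [hx]; field_simp
    _ ≤ A * (2:ℝ) ^ (((sm A C1 D : ℕ) : ℝ) / 4) / ll D * D := by
        refine mul_le_mul_of_nonneg_right ?_ hD
        exact div_le_div_of_nonneg_right (mul_le_mul_of_nonneg_left h1 hA.le) hl.le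

lemma th_mono {A D : ℝ} (hA : 0 ≤ A) (hD : 0 ≤ D) {s s' : ℕ} (h : s ≤ s') :
    th A D s ≤ th A D s' := by
  unfold th
  refine mul_le_mul_of_nonneg_right (div_le_div_of_nonneg_right
    (mul_le_mul_of_nonneg_left ?_ hA) (by positivity)) hD
  refine Real.rpow_le_rpow_of_exponent_le one_le_two ?_
  have : (s : ℝ) ≤ s' := by exact_mod_cast h
  linarith

lemma th_nonneg {A D : ℝ} (hA : 0 ≤ A) (hD : 0 ≤ D) (s : ℕ) : 0 ≤ th A D s := by
  unfold th; positivity

end Vale.Agent.P091.T.H124
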